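import Vale.Agent.Lib.P335.John.JS

/-!
# P335 / Johnson slice, Step 2 (`JS`) for the `k`-subsets of a finset `W`

`johnson_step2_finset_of_J2`: the statement of `johnson_step2_of_J2` for the `k`-subsets of
a finset `W : Finset V` (pairs `q ⊆ W`), obtained by transport along the subtype embedding
`{x // x ∈ W} ↪ V`.  The frame bound `J2` is assumed on the subtype.
-/

namespace Vale.Agent.Lib.P335.John

open Finset

variable {V : Type*} [DecidableEq V]

/-- The embedding `I ↦ I.map (subtype)` of finsets of `{x // x ∈ W}` into finsets of `V`. -/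
def liftEmb (W : Finset V) : Finset {x // x ∈ W} ↪ Finset V :=
  (Finset.mapEmbedding (Function.Embedding.subtype (fun x => x ∈ W))).toEmbedding

omit [DecidableEq V] in
theorem liftEmb_apply (W : Finset V) (I : Finset {x // x ∈ W}) :
    liftEmb W I = I.map (Function.Embedding.subtype (fun x => x ∈ W)) := rfl

omit [DecidableEq V] in
theorem powersetCard_eq_map (W : Finset V) (k : ℕ) :
    W.powersetCard k = ((Finset.univ : Finset {x // x ∈ W}).powersetCard k).map (liftEmb W) := by
  have h := Finset.powersetCard_map (Function.Embedding.subtype (fun x => x ∈ W)) k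
    (Finset.univ : Finset {x // x ∈ W})
  rw [← Finset.attach_eq_univ, Finset.attach_map_val] at h
  rw [h, ← Finset.attach_eq_univ]
  rfl

theorem liftEmb_inter_card (W : Finset V) (I q : Finset {x // x ∈ W}) :
    (liftEmb W I ∩ liftEmb W q).card = (I ∩ q).card := by
  rw [liftEmb_apply, liftEmb_apply, ← Finset.map_inter, Finset.card_map]

theorem liftEmb_symmDiff (W : Finset V) (I q : Finset {x // x ∈ W}) :
    symmDiff (liftEmb W I) (liftEmb W q) = liftEmb W (symmDiff I q) := by
  simp only [liftEmb_apply, symmDiff_def, Finset.sup_eq_union, Finset.map_union,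
    Finset.map_sdiff]

theorem filter_eq_map (W : Finset V) (k : ℕ) (q : Finset {x // x ∈ W}) :
    (W.powersetCard k).filter (fun J => (J ∩ liftEmb W q).card = 1)
      = (((Finset.univ : Finset {x // x ∈ W}).powersetCard k).filter
          (fun I => (I ∩ q).card = 1)).map (liftEmb W) := by
  rw [powersetCard_eq_map, Finset.filter_map]
  congr 1
  refine Finset.filter_congr (fun I _ => ?_)
  simp only [Function.comp_apply]
  rw [liftEmb_inter_card]

/-- **JS on the `k`-subsets of a finset `W`, from J1 and J2 (J2 assumed on the subtype).** -/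
theorem johnson_step2_finset_of_J2 (W : Finset V) (k : ℕ) (F : Finset V → ℝ)
    (hF : ∑ J ∈ W.powersetCard k, F J = 0)
    (hJ2 : ∀ f : Finset {x // x ∈ W} → ℝ,
      ∑ J ∈ (Finset.univ : Finset {x // x ∈ W}).powersetCard k, f J = 0 →
      2 ≤ Fintype.card {x // x ∈ W} →
      ∑ q ∈ (Finset.univ : Finset {x // x ∈ W}).powersetCard 2,
          (∑ J ∈ ((Finset.univ : Finset {x // x ∈ W}).powersetCard k).filter
              (fun J => (J ∩ q).card = 1), f J) ^ 2
            / ((((Finset.univ : Finset {x // x ∈ W}).powersetCard k).filter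
              (fun J => (J ∩ q).card = 1)).card : ℝ)
        ≤ (((Fintype.card {x // x ∈ W} : ℝ) - 2) / 2)
            * ∑ J ∈ (Finset.univ : Finset {x // x ∈ W}).powersetCard k, f J ^ 2) :
    ∑ J ∈ W.powersetCard k, F J ^ 2
      ≤ ∑ q ∈ W.powersetCard 2,
          ((1 / 4) * ∑ J ∈ (W.powersetCard k).filter (fun J => (J ∩ q).card = 1),
              (F J - F (symmDiff J q)) ^ 2
            - (∑ J ∈ (W.powersetCard k).filter (fun J => (J ∩ q).card = 1), F J) ^ 2
              / (((W.powersetCard k).filter (fun J => (J ∩ q).card = 1)).card : ℝ)) := by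
  set f : Finset {x // x ∈ W} → ℝ := fun I => F (liftEmb W I) with hfdef
  have hf : ∑ J ∈ (Finset.univ : Finset {x // x ∈ W}).powersetCard k, f J = 0 := by
    rw [powersetCard_eq_map, Finset.sum_map] at hF
    exact hF
  have h := johnson_step2_of_J2 k f hf (hJ2 f hf)
  have e1 : ∑ J ∈ W.powersetCard k, F J ^ 2
      = ∑ J ∈ (Finset.univ : Finset {x // x ∈ W}).powersetCard k, f J ^ 2 := by
    rw [powersetCard_eq_map, Finset.sum_map]
  rw [e1, powersetCard_eq_map W 2, Finset.sum_map]
  refine le_trans h (le_of_eq ?_)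
  refine Finset.sum_congr rfl (fun q _ => ?_)
  rw [filter_eq_map, Finset.sum_map, Finset.sum_map, Finset.card_map]
  congr 2
  refine Finset.sum_congr rfl (fun I _ => ?_)
  rw [liftEmb_symmDiff]

end Vale.Agent.Lib.P335.John
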