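import Vale.Agent.Lib.P335.John.J1

/-!
# P335 / Johnson slice, J1 in the pair-indexed form

`johnson_J1`: for a function `f` with zero sum on the `k`-subsets of a finite type `α`
(`m = |α|`),
`(m/2) ∑ f² ≤ ∑_{pairs q} (1/4) ∑_{J : |J ∩ q| = 1} (f J - f (J ∆ q))²`.
This is `johnson_poincare` re-indexed: the ordered moves `(J, b, c)`, `b ∈ J`, `c ∉ J`,
correspond to the pairs `(J, q)`, `q = {b, c}`, `|J ∩ q| = 1`, and `J ∆ q = J - b + c`.
-/

namespace Vale.Agent.Lib.P335.John

open Finset

variable {α : Type*} [DecidableEq α]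

/-- `J ∆ {b, c} = J - b + c` for `b ∈ J`, `c ∉ J`. -/
theorem symmDiff_pair_eq {J : Finset α} {b c : α} (hb : b ∈ J) (hc : c ∉ J) :
    symmDiff J {b, c} = insert c (J.erase b) := by
  ext a
  simp only [Finset.mem_symmDiff, Finset.mem_insert, Finset.mem_singleton, Finset.mem_erase]
  by_cases hab : a = b
  · subst hab
    have : a ≠ c := fun h => hc (h ▸ hb)
    tauto
  · by_cases hac : a = c
    · subst hac
      tauto
    · tauto

/-- `|J ∩ {b, c}| = 1` for `b ∈ J`, `c ∉ J`. -/
theorem card_inter_pair {J : Finset α} {b c : α} (hb : b ∈ J) (hc : c ∉ J) :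
    (J ∩ {b, c}).card = 1 := by
  have : J ∩ {b, c} = {b} := by
    ext a
    simp only [Finset.mem_inter, Finset.mem_insert, Finset.mem_singleton]
    constructor
    · rintro ⟨ha, rfl | rfl⟩
      · rfl
      · exact absurd ha hc
    · rintro rfl
      exact ⟨hb, Or.inl rfl⟩
  rw [this, Finset.card_singleton]

/-- Re-indexing of the moves out of a fixed set `J`: pairs `q ⊆ W` meeting `J` in exactly
one point correspond to `(b, c)`, `b ∈ J`, `c ∈ W \ J`. -/
theorem sum_pairs_meeting (W J : Finset α) (hJ : J ⊆ W) (G : Finset α → ℝ) :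
    ∑ q ∈ (W.powersetCard 2).filter (fun q => (J ∩ q).card = 1), G q
      = ∑ b ∈ J, ∑ c ∈ W \ J, G {b, c} := by
  rw [← Finset.sum_product' (f := fun b c => G {b, c})]
  symm
  refine Finset.sum_bij (fun x _ => ({x.1, x.2} : Finset α)) ?_ ?_ ?_ ?_
  · rintro ⟨b, c⟩ hx
    simp only [Finset.mem_product, Finset.mem_sdiff] at hx
    obtain ⟨hb, hcW, hc⟩ := hx
    have hbc : b ≠ c := fun h => hc (h ▸ hb)
    simp only [Finset.mem_filter, Finset.mem_powersetCard]
    refine ⟨⟨?_, Finset.card_pair hbc⟩, card_inter_pair hb hc⟩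
    intro a ha
    simp only [Finset.mem_insert, Finset.mem_singleton] at ha
    rcases ha with rfl | rfl
    · exact hJ hb
    · exact hcW
  · rintro ⟨b, c⟩ hx ⟨b', c'⟩ hx' h
    simp only [Finset.mem_product, Finset.mem_sdiff] at hx hx'
    obtain ⟨hb, -, hc⟩ := hx
    obtain ⟨hb', -, hc'⟩ := hx'
    simp only at h
    have h1 : b ∈ ({b', c'} : Finset α) := by
      rw [← h]; exact Finset.mem_insert_self _ _
    have h2 : c ∈ ({b', c'} : Finset α) := by
      rw [← h]; exact Finset.mem_insert_of_mem (Finset.mem_singleton_self _)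
    simp only [Finset.mem_insert, Finset.mem_singleton] at h1 h2
    have e1 : b = b' := by
      rcases h1 with h1 | h1
      · exact h1
      · exact absurd (h1 ▸ hb) hc'
    have e2 : c = c' := by
      rcases h2 with h2 | h2
      · exact absurd (h2 ▸ hb') hc
      · exact h2
    rw [e1, e2]
  · intro q hq
    simp only [Finset.mem_filter, Finset.mem_powersetCard] at hq
    obtain ⟨⟨hqW, hq2⟩, hq1⟩ := hq
    obtain ⟨x, y, hxy, rfl⟩ := Finset.card_eq_two.mp hq2
    have hxW : x ∈ W := hqW (Finset.mem_insert_self _ _)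
    have hyW : y ∈ W := hqW (Finset.mem_insert_of_mem (Finset.mem_singleton_self _))
    by_cases hx : x ∈ J
    · by_cases hy : y ∈ J
      · exfalso
        have : J ∩ {x, y} = {x, y} := by
          rw [Finset.inter_eq_right]
          intro a ha
          simp only [Finset.mem_insert, Finset.mem_singleton] at ha
          rcases ha with rfl | rfl
          · exact hx
          · exact hy
        rw [this, Finset.card_pair hxy] at hq1
        omega
      · exact ⟨(x, y), by simp [hx, hy, hyW], rfl⟩
    · by_cases hy : y ∈ J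
      · exact ⟨(y, x), by simp [hx, hy, hxW], Finset.pair_comm y x⟩
      · exfalso
        have : J ∩ {x, y} = ∅ := by
          ext a
          simp only [Finset.mem_inter, Finset.mem_insert, Finset.mem_singleton,
            Finset.notMem_empty, iff_false, not_and]
          rintro ha (rfl | rfl)
          · exact hx ha
          · exact hy ha
        rw [this] at hq1
        simp at hq1
  · rintro ⟨b, c⟩ _
    rfl

/-- **J1, pair-indexed form on a finset `W`.** -/
theorem johnson_J1_finset (W : Finset α) (k : ℕ) (f : Finset α → ℝ)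
    (hf : ∑ J ∈ W.powersetCard k, f J = 0) :
    ((W.card : ℝ) / 2) * ∑ J ∈ W.powersetCard k, f J ^ 2
      ≤ ∑ q ∈ W.powersetCard 2,
          (1 / 4) * ∑ J ∈ (W.powersetCard k).filter (fun J => (J ∩ q).card = 1),
            (f J - f (symmDiff J q)) ^ 2 := by
  have h := johnson_poincare W k f hf
  have e : ∑ q ∈ W.powersetCard 2,
      ∑ J ∈ (W.powersetCard k).filter (fun J => (J ∩ q).card = 1),
        (f J - f (symmDiff J q)) ^ 2
      = ∑ J ∈ W.powersetCard k, ∑ b ∈ J, ∑ c ∈ W \ J,
          (f J - f (insert c (J.erase b))) ^ 2 := by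
    calc ∑ q ∈ W.powersetCard 2,
          ∑ J ∈ (W.powersetCard k).filter (fun J => (J ∩ q).card = 1),
            (f J - f (symmDiff J q)) ^ 2
        = ∑ q ∈ W.powersetCard 2, ∑ J ∈ W.powersetCard k,
            (if (J ∩ q).card = 1 then (f J - f (symmDiff J q)) ^ 2 else 0) :=
          Finset.sum_congr rfl (fun q _ => Finset.sum_filter _ _)
      _ = ∑ J ∈ W.powersetCard k, ∑ q ∈ W.powersetCard 2,
            (if (J ∩ q).card = 1 then (f J - f (symmDiff J q)) ^ 2 else 0) :=
          Finset.sum_comm
      _ = ∑ J ∈ W.powersetCard k,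
            ∑ q ∈ (W.powersetCard 2).filter (fun q => (J ∩ q).card = 1),
              (f J - f (symmDiff J q)) ^ 2 :=
          Finset.sum_congr rfl (fun J _ => (Finset.sum_filter _ _).symm)
      _ = ∑ J ∈ W.powersetCard k, ∑ b ∈ J, ∑ c ∈ W \ J,
            (f J - f (insert c (J.erase b))) ^ 2 := by
          refine Finset.sum_congr rfl (fun J hJ => ?_)
          rw [sum_pairs_meeting W J (Finset.mem_powersetCard.mp hJ).1
            (fun q => (f J - f (symmDiff J q)) ^ 2)]
          refine Finset.sum_congr rfl (fun b hb => Finset.sum_congr rfl (fun c hc => ?_))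
          rw [symmDiff_pair_eq hb (Finset.mem_sdiff.mp hc).2]
  rw [← Finset.mul_sum, e]
  linarith

/-- **J1 (Johnson gap `m`), pair-indexed form on a finite type.**  For `f` with zero sum on
the `k`-subsets of `α`, `(|α|/2) ∑ f² ≤ ∑_q (1/4) ∑_{J : |J ∩ q| = 1} (f J - f (J ∆ q))²`. -/
theorem johnson_J1 [Fintype α] (k : ℕ) (f : Finset α → ℝ)
    (hf : ∑ J ∈ (Finset.univ : Finset α).powersetCard k, f J = 0) :
    ((Fintype.card α : ℝ) / 2) * ∑ J ∈ (Finset.univ : Finset α).powersetCard k, f J ^ 2
      ≤ ∑ q ∈ (Finset.univ : Finset α).powersetCard 2,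
          (1 / 4) * ∑ J ∈ ((Finset.univ : Finset α).powersetCard k).filter
              (fun J => (J ∩ q).card = 1), (f J - f (symmDiff J q)) ^ 2 := by
  have h := johnson_J1_finset (Finset.univ : Finset α) k f hf
  rwa [Finset.card_univ] at h

end Vale.Agent.Lib.P335.John
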