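import Mathlib

/-!
# P335 / Johnson sets: the sharp Poincare inequality of the Johnson graph

`W` a finite set with `m` elements, level `k` = the `k`-subsets of `W`.  Two `k`-subsets are
adjacent when they differ by exchanging one element.  For a function `f` with zero sum on level
`k`, the sum over ordered adjacent pairs of `(f J - f J')^2` is at least `2 m ∑ f^2`.

Elementary proof: down operator `dn`, up operator `up`, adjointness, the commutation identity
`dn ∘ up - up ∘ dn = m - 2 j` on level `j`, and induction on the level.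
-/

namespace Vale.Agent.Lib.P335.John

open Finset

variable {α : Type*} [DecidableEq α]

/-- Down operator: sum of `f` over the sets `I ∪ {x}`, `x ∈ W \ I`. -/
def dn (W : Finset α) (f : Finset α → ℝ) (I : Finset α) : ℝ :=
  ∑ x ∈ W \ I, f (insert x I)

/-- Up operator: sum of `g` over the sets `J \ {x}`, `x ∈ J`. -/
def up (g : Finset α → ℝ) (J : Finset α) : ℝ :=
  ∑ x ∈ J, g (J.erase x)

/-- Reindexing the flags `(I, x)`, `I` a `j`-subset of `W`, `x ∈ W \ I`, by `(I ∪ {x}, x)`. -/
theorem sum_flag (W : Finset α) (j : ℕ) (F : Finset α → α → ℝ) :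
    ∑ I ∈ W.powersetCard j, ∑ x ∈ W \ I, F I x
      = ∑ J ∈ W.powersetCard (j + 1), ∑ x ∈ J, F (J.erase x) x := by
  rw [Finset.sum_sigma', Finset.sum_sigma']
  refine Finset.sum_bij' (fun (a : (_ : Finset α) × α) _ => ⟨insert a.2 a.1, a.2⟩)
    (fun (a : (_ : Finset α) × α) _ => ⟨a.1.erase a.2, a.2⟩) ?_ ?_ ?_ ?_ ?_
  · rintro ⟨I, x⟩ h
    simp only [Finset.mem_sigma, Finset.mem_powersetCard, Finset.mem_sdiff] at h ⊢
    obtain ⟨⟨hIW, hIc⟩, hxW, hxI⟩ := h
    refine ⟨⟨Finset.insert_subset hxW hIW, ?_⟩, Finset.mem_insert_self x I⟩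
    rw [Finset.card_insert_of_notMem hxI, hIc]
  · rintro ⟨J, x⟩ h
    simp only [Finset.mem_sigma, Finset.mem_powersetCard, Finset.mem_sdiff] at h ⊢
    obtain ⟨⟨hJW, hJc⟩, hxJ⟩ := h
    refine ⟨⟨(Finset.erase_subset x J).trans hJW, ?_⟩, hJW hxJ, Finset.notMem_erase x J⟩
    rw [Finset.card_erase_of_mem hxJ, hJc]
    rfl
  · rintro ⟨I, x⟩ h
    simp only [Finset.mem_sigma, Finset.mem_powersetCard, Finset.mem_sdiff] at h
    simp [Finset.erase_insert h.2.2]
  · rintro ⟨J, x⟩ h
    simp only [Finset.mem_sigma, Finset.mem_powersetCard] at h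
    simp [Finset.insert_erase h.2]
  · rintro ⟨I, x⟩ h
    simp only [Finset.mem_sigma, Finset.mem_powersetCard, Finset.mem_sdiff] at h
    simp [Finset.erase_insert h.2.2]

/-- Adjointness of `dn` and `up`. -/
theorem sum_dn_mul (W : Finset α) (j : ℕ) (f g : Finset α → ℝ) :
    ∑ I ∈ W.powersetCard j, dn W f I * g I
      = ∑ J ∈ W.powersetCard (j + 1), f J * up g J := by
  have h := sum_flag W j (fun I x => f (insert x I) * g I)
  have hL : ∑ I ∈ W.powersetCard j, dn W f I * g I
      = ∑ I ∈ W.powersetCard j, ∑ x ∈ W \ I, f (insert x I) * g I := by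
    refine Finset.sum_congr rfl (fun I _ => ?_)
    unfold dn
    rw [Finset.sum_mul]
  have hR : ∑ J ∈ W.powersetCard (j + 1), f J * up g J
      = ∑ J ∈ W.powersetCard (j + 1), ∑ x ∈ J, f (insert x (J.erase x)) * g (J.erase x) := by
    refine Finset.sum_congr rfl (fun J _ => ?_)
    unfold up
    rw [Finset.mul_sum]
    refine Finset.sum_congr rfl (fun x hx => ?_)
    rw [Finset.insert_erase hx]
  rw [hL, hR, h]

/-- The number of elements of a `j`-subset `I` of `W` and of its complement. -/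
theorem card_sdiff_level {W I : Finset α} {j : ℕ} (hI : I ∈ W.powersetCard j) :
    ((W \ I).card : ℝ) = (W.card : ℝ) - j := by
  rw [Finset.mem_powersetCard] at hI
  rw [Finset.card_sdiff_of_subset hI.1, hI.2, Nat.cast_sub]
  rw [← hI.2]
  exact Finset.card_le_card hI.1

/-- Commutation identity on level `j`. -/
theorem dn_up_sub_up_dn (W : Finset α) (j : ℕ) (g : Finset α → ℝ) {I : Finset α}
    (hI : I ∈ W.powersetCard j) :
    dn W (up g) I - up (dn W g) I = ((W.card : ℝ) - 2 * j) * g I := by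
  have hI' := Finset.mem_powersetCard.mp hI
  have h1 : dn W (up g) I
      = ((W.card : ℝ) - j) * g I + ∑ x ∈ W \ I, ∑ y ∈ I, g (insert x (I.erase y)) := by
    unfold dn up
    have : ∀ x ∈ W \ I, ∑ y ∈ insert x I, g ((insert x I).erase y)
        = g I + ∑ y ∈ I, g (insert x (I.erase y)) := by
      intro x hx
      have hxI : x ∉ I := (Finset.mem_sdiff.mp hx).2
      rw [Finset.sum_insert hxI, Finset.erase_insert hxI]
      congr 1
      refine Finset.sum_congr rfl (fun y hy => ?_)
      have hxy : x ≠ y := fun h => hxI (h ▸ hy)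
      rw [Finset.erase_insert_of_ne hxy]
    rw [Finset.sum_congr rfl this, Finset.sum_add_distrib, Finset.sum_const, nsmul_eq_mul,
      card_sdiff_level hI]
  have h2 : up (dn W g) I
      = (j : ℝ) * g I + ∑ y ∈ I, ∑ x ∈ W \ I, g (insert x (I.erase y)) := by
    unfold dn up
    have : ∀ y ∈ I, ∑ x ∈ W \ I.erase y, g (insert x (I.erase y))
        = g I + ∑ x ∈ W \ I, g (insert x (I.erase y)) := by
      intro y hy
      have hyW : y ∈ W := hI'.1 hy
      have hset : W \ I.erase y = insert y (W \ I) := by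
        ext z
        simp only [Finset.mem_sdiff, Finset.mem_erase, Finset.mem_insert]
        constructor
        · rintro ⟨hz, hne⟩
          by_cases hzy : z = y
          · exact Or.inl hzy
          · exact Or.inr ⟨hz, fun hzI => hne ⟨hzy, hzI⟩⟩
        · rintro (rfl | ⟨hz, hzI⟩)
          · exact ⟨hyW, fun h => h.1 rfl⟩
          · exact ⟨hz, fun h => hzI h.2⟩
      have hy' : y ∉ W \ I := fun h => (Finset.mem_sdiff.mp h).2 hy
      rw [hset, Finset.sum_insert hy', Finset.insert_erase hy]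
    rw [Finset.sum_congr rfl this, Finset.sum_add_distrib, Finset.sum_const, nsmul_eq_mul,
      hI'.2]
  rw [h1, h2, Finset.sum_comm]
  ring

/-- `up` of the constant function `1` is the cardinality. -/
theorem up_one (J : Finset α) : up (fun _ => (1 : ℝ)) J = J.card := by
  unfold up
  rw [Finset.sum_const, nsmul_eq_mul, mul_one]

/-- The sum of `dn W f` over level `j` is `(j + 1)` times the sum of `f` over level `j + 1`. -/
theorem sum_dn (W : Finset α) (j : ℕ) (f : Finset α → ℝ) :
    ∑ I ∈ W.powersetCard j, dn W f I = ((j : ℝ) + 1) * ∑ J ∈ W.powersetCard (j + 1), f J := by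
  have h := sum_dn_mul W j f (fun _ => (1 : ℝ))
  simp only [mul_one] at h
  rw [h, Finset.mul_sum]
  refine Finset.sum_congr rfl (fun J hJ => ?_)
  rw [up_one, (Finset.mem_powersetCard.mp hJ).2]
  push_cast
  ring

/-- Key bound: for `f` with zero sum on level `j + 1`, `‖dn f‖² ≤ j (m - (j + 1)) ‖f‖²`. -/
theorem sum_dn_sq_le (W : Finset α) : ∀ (j : ℕ) (f : Finset α → ℝ), j + 1 ≤ W.card →
    ∑ J ∈ W.powersetCard (j + 1), f J = 0 →
    ∑ I ∈ W.powersetCard j, dn W f I ^ 2
      ≤ (j : ℝ) * ((W.card : ℝ) - (j + 1)) * ∑ J ∈ W.powersetCard (j + 1), f J ^ 2 := by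
  intro j
  induction j with
  | zero =>
    intro f _ hf
    have h := sum_dn W 0 f
    rw [hf, mul_zero] at h
    rw [Finset.powersetCard_zero, Finset.sum_singleton] at h ⊢
    rw [h]
    simp
  | succ j ih =>
    intro f hm hf
    set g : Finset α → ℝ := dn W f with hg
    have hm' : j + 1 ≤ W.card := by omega
    have hmr : ((j : ℝ) + 2) ≤ (W.card : ℝ) := by
      have : ((j + 1 + 1 : ℕ) : ℝ) ≤ (W.card : ℝ) := by exact_mod_cast hm
      push_cast at this
      linarith
    -- `g` has zero sum on level `j + 1`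
    have hg0 : ∑ I ∈ W.powersetCard (j + 1), g I = 0 := by
      rw [hg, sum_dn W (j + 1) f, hf, mul_zero]
    -- `‖g‖² = ⟨f, up g⟩`
    have h1 : ∑ I ∈ W.powersetCard (j + 1), g I ^ 2
        = ∑ J ∈ W.powersetCard (j + 1 + 1), f J * up g J := by
      rw [← sum_dn_mul W (j + 1) f g]
      exact Finset.sum_congr rfl (fun I _ => sq (g I))
    -- `‖up g‖² = ‖dn g‖² + (m - 2 (j + 1)) ‖g‖²`
    have h2 : ∑ J ∈ W.powersetCard (j + 1 + 1), up g J ^ 2
        = ∑ K ∈ W.powersetCard j, dn W g K ^ 2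
          + ((W.card : ℝ) - 2 * ((j : ℝ) + 1)) * ∑ I ∈ W.powersetCard (j + 1), g I ^ 2 := by
      have e1 : ∑ J ∈ W.powersetCard (j + 1 + 1), up g J ^ 2
          = ∑ I ∈ W.powersetCard (j + 1), dn W (up g) I * g I := by
        rw [sum_dn_mul W (j + 1) (up g) g]
        exact Finset.sum_congr rfl (fun J _ => sq (up g J))
      have e2 : ∑ K ∈ W.powersetCard j, dn W g K ^ 2
          = ∑ I ∈ W.powersetCard (j + 1), g I * up (dn W g) I := by
        rw [← sum_dn_mul W j g (dn W g)]
        exact Finset.sum_congr rfl (fun K _ => sq (dn W g K))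
      rw [e1, e2, Finset.mul_sum, ← Finset.sum_add_distrib]
      refine Finset.sum_congr rfl (fun I hI => ?_)
      have hc := dn_up_sub_up_dn W (j + 1) g hI
      push_cast at hc
      have : dn W (up g) I = up (dn W g) I + ((W.card : ℝ) - 2 * ((j : ℝ) + 1)) * g I := by
        linarith
      rw [this]
      ring
    have h3 := ih g hm' hg0
    set A : ℝ := ∑ I ∈ W.powersetCard (j + 1), g I ^ 2 with hA
    set B : ℝ := ∑ J ∈ W.powersetCard (j + 1 + 1), f J ^ 2 with hB
    set U : ℝ := ∑ J ∈ W.powersetCard (j + 1 + 1), up g J ^ 2 with hU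
    have hA0 : 0 ≤ A := Finset.sum_nonneg (fun _ _ => sq_nonneg _)
    have hB0 : 0 ≤ B := Finset.sum_nonneg (fun _ _ => sq_nonneg _)
    -- Cauchy-Schwarz
    have hCS : A ^ 2 ≤ B * U := by
      rw [h1]
      exact Finset.sum_mul_sq_le_sq_mul_sq _ _ _
    set c : ℝ := ((j : ℝ) + 1) * ((W.card : ℝ) - ((j : ℝ) + 2)) with hc
    have hc0 : 0 ≤ c := mul_nonneg (by positivity) (by linarith)
    have hU' : U ≤ c * A := by
      rw [h2]
      have : (j : ℝ) * ((W.card : ℝ) - ((j : ℝ) + 1)) * A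
          + ((W.card : ℝ) - 2 * ((j : ℝ) + 1)) * A = c * A := by
        rw [hc]; ring
      linarith
    have hfin : A ≤ c * B := by
      rcases hA0.eq_or_lt with h0 | hpos
      · rw [← h0]
        exact mul_nonneg hc0 hB0
      · have : A * A ≤ A * (c * B) := by
          calc A * A = A ^ 2 := by ring
            _ ≤ B * U := hCS
            _ ≤ B * (c * A) := mul_le_mul_of_nonneg_left hU' hB0
            _ = A * (c * B) := by ring
        exact le_of_mul_le_mul_left this hpos
    have hgoal : ((j + 1 : ℕ) : ℝ) * ((W.card : ℝ) - ((j + 1 : ℕ) + 1)) = c := by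
      rw [hc]; push_cast; ring
    rw [hgoal]
    exact hfin

/-- Sum of squared differences over a finite set. -/
theorem sum_sum_sub_sq {ι : Type*} (S : Finset ι) (u : ι → ℝ) :
    ∑ b ∈ S, ∑ c ∈ S, (u b - u c) ^ 2
      = 2 * (S.card : ℝ) * ∑ b ∈ S, u b ^ 2 - 2 * (∑ b ∈ S, u b) ^ 2 := by
  have h : ∀ b ∈ S, ∑ c ∈ S, (u b - u c) ^ 2
      = (S.card : ℝ) * u b ^ 2 - 2 * u b * ∑ c ∈ S, u c + ∑ c ∈ S, u c ^ 2 := by
    intro b _
    have e : ∀ c ∈ S, (u b - u c) ^ 2 = u b ^ 2 - 2 * u b * u c + u c ^ 2 := fun c _ => by ring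
    rw [Finset.sum_congr rfl e, Finset.sum_add_distrib, Finset.sum_sub_distrib, Finset.sum_const,
      nsmul_eq_mul, ← Finset.mul_sum]
  rw [Finset.sum_congr rfl h, Finset.sum_add_distrib, Finset.sum_sub_distrib, Finset.sum_const,
    nsmul_eq_mul, ← Finset.mul_sum, ← Finset.sum_mul, ← Finset.mul_sum]
  ring

/-- The edge energy of the Johnson graph on level `j + 1` in terms of `dn`. -/
theorem energy_eq (W : Finset α) (j : ℕ) (f : Finset α → ℝ) :
    ∑ J ∈ W.powersetCard (j + 1), ∑ b ∈ J, ∑ c ∈ W \ J, (f J - f (insert c (J.erase b))) ^ 2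
      = 2 * ((W.card : ℝ) - j) * (((j : ℝ) + 1) * ∑ J ∈ W.powersetCard (j + 1), f J ^ 2)
        - 2 * ∑ I ∈ W.powersetCard j, dn W f I ^ 2 := by
  have h := sum_flag W j
    (fun I b => ∑ c ∈ W \ insert b I, (f (insert b I) - f (insert c I)) ^ 2)
  have hL : ∑ J ∈ W.powersetCard (j + 1), ∑ b ∈ J, ∑ c ∈ W \ J,
        (f J - f (insert c (J.erase b))) ^ 2
      = ∑ J ∈ W.powersetCard (j + 1), ∑ b ∈ J, ∑ c ∈ W \ insert b (J.erase b),
        (f (insert b (J.erase b)) - f (insert c (J.erase b))) ^ 2 := by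
    refine Finset.sum_congr rfl (fun J _ => Finset.sum_congr rfl (fun b hb => ?_))
    rw [Finset.insert_erase hb]
  rw [hL, ← h]
  have hI : ∀ I ∈ W.powersetCard j,
      ∑ b ∈ W \ I, ∑ c ∈ W \ insert b I, (f (insert b I) - f (insert c I)) ^ 2
        = 2 * ((W.card : ℝ) - j) * dn W (fun J => f J ^ 2) I - 2 * dn W f I ^ 2 := by
    intro I hI
    have e1 : ∀ b ∈ W \ I, ∑ c ∈ W \ insert b I, (f (insert b I) - f (insert c I)) ^ 2
        = ∑ c ∈ W \ I, (f (insert b I) - f (insert c I)) ^ 2 := by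
      intro b _
      have hset : W \ insert b I = (W \ I).erase b := by
        ext z
        simp only [Finset.mem_sdiff, Finset.mem_insert, Finset.mem_erase]
        tauto
      rw [hset]
      exact Finset.sum_erase _ (by simp)
    rw [Finset.sum_congr rfl e1, sum_sum_sub_sq (W \ I) (fun x => f (insert x I)),
      card_sdiff_level hI]
    rfl
  rw [Finset.sum_congr rfl hI, Finset.sum_sub_distrib, ← Finset.mul_sum, ← Finset.mul_sum,
    sum_dn W j (fun J => f J ^ 2)]

/-- **Sharp Poincare inequality of the Johnson graph.**  For `f` with zero sum on the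
`k`-subsets of `W`, the sum over ordered pairs of adjacent `k`-subsets (`J` and
`J - b + c`, `b ∈ J`, `c ∈ W \ J`) of the squared difference of `f` is at least
`2 |W| ∑ f²`. -/
theorem johnson_poincare (W : Finset α) (k : ℕ) (f : Finset α → ℝ)
    (hf : ∑ J ∈ W.powersetCard k, f J = 0) :
    2 * (W.card : ℝ) * ∑ J ∈ W.powersetCard k, f J ^ 2
      ≤ ∑ J ∈ W.powersetCard k, ∑ b ∈ J, ∑ c ∈ W \ J,
          (f J - f (insert c (J.erase b))) ^ 2 := by
  have hR : 0 ≤ ∑ J ∈ W.powersetCard k, ∑ b ∈ J, ∑ c ∈ W \ J,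
      (f J - f (insert c (J.erase b))) ^ 2 :=
    Finset.sum_nonneg (fun _ _ => Finset.sum_nonneg (fun _ _ =>
      Finset.sum_nonneg (fun _ _ => sq_nonneg _)))
  rcases Nat.eq_zero_or_pos k with rfl | hk
  · rw [Finset.powersetCard_zero, Finset.sum_singleton] at hf
    rw [Finset.powersetCard_zero, Finset.sum_singleton, hf] at *
    simp
  · obtain ⟨j, rfl⟩ : ∃ j, k = j + 1 := ⟨k - 1, by omega⟩
    by_cases hm : j + 1 ≤ W.card
    · rw [energy_eq W j f]
      have hb := sum_dn_sq_le W j f hm hf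
      have hmr : ((j : ℝ) + 1) ≤ (W.card : ℝ) := by
        have : ((j + 1 : ℕ) : ℝ) ≤ (W.card : ℝ) := by exact_mod_cast hm
        push_cast at this
        linarith
      set B : ℝ := ∑ J ∈ W.powersetCard (j + 1), f J ^ 2 with hB
      nlinarith [hb]
    · have hem : W.powersetCard (j + 1) = ∅ :=
        Finset.powersetCard_eq_empty.mpr (by omega)
      rw [hem]
      simp

end Vale.Agent.Lib.P335.John
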