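import Vale.Agent.Lib.P335.John.J1Bridge

/-!
# P335 / Johnson slice, Step 2 (`JS`) from `J1` and `J2`

`johnson_step2_of_J2`: for `f` with zero sum on the `k`-subsets of a finite type `α`,
`∑ f² ≤ ∑_{pairs q} ((1/4) ∑_{J ∈ D_q} (f J - f (J ∆ q))² - (∑_{J ∈ D_q} f J)² / |D_q|)`,
where `D_q = {J : |J| = k, |J ∩ q| = 1}`, given the frame bound `J2`
`∑_q (∑_{J ∈ D_q} f J)² / |D_q| ≤ ((m-2)/2) ∑ f²` (for `m = |α| ≥ 2`).
-/

namespace Vale.Agent.Lib.P335.John

open Finset

variable {α : Type*} [DecidableEq α]

/-- **JS from J1 and J2.** -/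
theorem johnson_step2_of_J2 [Fintype α] (k : ℕ) (f : Finset α → ℝ)
    (hf : ∑ J ∈ (Finset.univ : Finset α).powersetCard k, f J = 0)
    (hJ2 : 2 ≤ Fintype.card α →
      ∑ q ∈ (Finset.univ : Finset α).powersetCard 2,
          (∑ J ∈ ((Finset.univ : Finset α).powersetCard k).filter
              (fun J => (J ∩ q).card = 1), f J) ^ 2
            / ((((Finset.univ : Finset α).powersetCard k).filter
              (fun J => (J ∩ q).card = 1)).card : ℝ)
        ≤ (((Fintype.card α : ℝ) - 2) / 2)
            * ∑ J ∈ (Finset.univ : Finset α).powersetCard k, f J ^ 2) :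
    ∑ J ∈ (Finset.univ : Finset α).powersetCard k, f J ^ 2
      ≤ ∑ q ∈ (Finset.univ : Finset α).powersetCard 2,
          ((1 / 4) * ∑ J ∈ ((Finset.univ : Finset α).powersetCard k).filter
              (fun J => (J ∩ q).card = 1), (f J - f (symmDiff J q)) ^ 2
            - (∑ J ∈ ((Finset.univ : Finset α).powersetCard k).filter
                (fun J => (J ∩ q).card = 1), f J) ^ 2
              / ((((Finset.univ : Finset α).powersetCard k).filter
                (fun J => (J ∩ q).card = 1)).card : ℝ)) := by
  have h1 := johnson_J1 k f hf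
  rw [Finset.sum_sub_distrib]
  by_cases hm : 2 ≤ Fintype.card α
  · have h2 := hJ2 hm
    linarith
  · -- `|α| ≤ 1`: no pairs, and the slice has at most one element
    have hPr : (Finset.univ : Finset α).powersetCard 2 = ∅ := by
      apply Finset.powersetCard_eq_empty.mpr
      rw [Finset.card_univ]
      omega
    rw [hPr, Finset.sum_empty, Finset.sum_empty, sub_zero]
    have hcard : ((Finset.univ : Finset α).powersetCard k).card ≤ 1 := by
      rw [Finset.card_powersetCard, Finset.card_univ]
      have hm' : Fintype.card α ≤ 1 := by omega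
      rcases Nat.lt_or_ge (Fintype.card α) k with hk | hk
      · rw [Nat.choose_eq_zero_of_lt hk]
        omega
      · interval_cases hc : Fintype.card α
        · have : k = 0 := by omega
          subst this
          simp
        · interval_cases k <;> simp
    rcases Finset.eq_empty_or_nonempty ((Finset.univ : Finset α).powersetCard k) with he | hne
    · rw [he, Finset.sum_empty]
    · obtain ⟨J0, hJ0⟩ := hne
      have hs : (Finset.univ : Finset α).powersetCard k = {J0} := by
        rw [Finset.eq_singleton_iff_unique_mem]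
        exact ⟨hJ0, fun J hJ => Finset.card_le_one.mp hcard J hJ J0 hJ0⟩
      rw [hs, Finset.sum_singleton] at hf ⊢
      rw [hf]
      norm_num

end Vale.Agent.Lib.P335.John
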